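import Vale.Agent.P032.H646.Csp

/-!
# P032: the cluster of a (2,2)-centre with real directions (helper646)

`csp646` : no four real directions with the constraints of `cns` (P1).
-/

noncomputable section

namespace Vale.Agent.P032.H646

open Classical in
/-- comparison of fractional parts -/
def gB (x y w : ℝ) : Bool := decide (gR x y w)

open Classical in
theorem gB_iff {x y w : ℝ} : gB x y w = true ↔ gR x y w := by
  unfold gB
  rw [decide_eq_true_iff]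

/-- the key of three real directions -/
def kR3 (x0 x1 x2 : ℝ) : ℕ :=
  (4 * fR x0 x1 + (gB x0 x0 x1).toNat + (gB x0 x2 x1).toNat) * 24 +
    (4 * fR x0 x2 + (gB x0 x0 x2).toNat + (gB x0 x1 x2).toNat)

open Classical in
/-- the sign of the determinant of two real directions -/
def sR (x y : ℝ) : Bool := decide (0 < Real.sin ((y - x) * (Real.pi / 3)))

/-- the pattern -/
def patR (x x' y y' : ℝ) : Prop :=
  fR x x' = 1 ∧ fR x' x = 4 ∧ fR x y = 0 ∧ fR y x = 5 ∧ fR y x' = 0 ∧ fR x' y = 5 ∧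
    fR x y' = 0 ∧ fR y' x = 5 ∧ fR y' x' = 0 ∧ fR x' y' = 5

theorem key_eq {b x0 x1 x2 τ0 τ1 τ2 : ℝ} {s0 s1 s2 r0 r1 r2 : ℕ} (h0 : At b x0 τ0 s0)
    (h1 : At b x1 τ1 s1) (h2 : At b x2 τ2 s2) (c10 : τ1 < τ0 ↔ r1 < r0) (c20 : τ2 < τ0 ↔ r2 < r0)
    (c12 : τ1 < τ2 ↔ r1 < r2) (c21 : τ2 < τ1 ↔ r2 < r1) (c01 : τ0 < τ1 ↔ r0 < r1)
    (c02 : τ0 < τ2 ↔ r0 < r2) :
    kR3 x0 x1 x2 = k3 s0 r0 s1 r1 s2 r2 := by
  have c00 : τ0 < τ0 ↔ r0 < r0 := ⟨fun h => absurd h (lt_irrefl _), fun h => absurd h (lt_irrefl _)⟩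
  have e1 := fR_eq h0 h1 c10
  have e2 := fR_eq h0 h2 c20
  have d1 : gB x0 x0 x1 = gN r0 r0 r1 := by
    rw [Bool.eq_iff_iff, gB_iff]
    exact gR_iff h0 h0 h1 c00 c10 c01
  have d2 : gB x0 x2 x1 = gN r0 r2 r1 := by
    rw [Bool.eq_iff_iff, gB_iff]
    exact gR_iff h0 h2 h1 c20 c10 c21
  have d3 : gB x0 x0 x2 = gN r0 r0 r2 := by
    rw [Bool.eq_iff_iff, gB_iff]
    exact gR_iff h0 h0 h2 c00 c20 c02
  have d4 : gB x0 x1 x2 = gN r0 r1 r2 := by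
    rw [Bool.eq_iff_iff, gB_iff]
    exact gR_iff h0 h1 h2 c10 c20 c12
  unfold kR3 k3
  rw [e1, e2, d1, d2, d3, d4]

theorem sR_eq {b x y τ σ : ℝ} {s t r q : ℕ} (hx : At b x τ s) (hy : At b y σ t)
    (hr : σ < τ ↔ q < r) (h0 : Real.sin ((y - x) * (Real.pi / 3)) ≠ 0) :
    sR x y = sg s r t q := by
  unfold sR sg
  rw [Bool.eq_iff_iff, decide_eq_true_iff, sin_pos_iff h0, Nat.blt_eq]
  have := fR_eq hx hy hr
  unfold fR at this
  rw [this]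

theorem sR_swap {x y : ℝ} (h0 : Real.sin ((y - x) * (Real.pi / 3)) ≠ 0) : sR y x = !sR x y := by
  unfold sR
  have e : (x - y) * (Real.pi / 3) = -((y - x) * (Real.pi / 3)) := by ring
  rw [e, Real.sin_neg]
  rcases lt_or_gt_of_ne h0 with h | h
  · rw [decide_eq_true (by linarith), decide_eq_false (by linarith)]; rfl
  · rw [decide_eq_false (by linarith), decide_eq_true h]; rfl

theorem z3_of {K : ℕ} {b0 b1 b2 : Bool} (ht : t3 K b0 b1 b2 = true) : z3 K = false := by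
  unfold z3
  rw [Bool.eq_false_iff, ne_eq, Nat.beq_eq]
  intro h0
  unfold t3 at ht
  have hb : b0.toNat + 2 * b1.toNat + 4 * b2.toNat < 8 := by
    cases b0 <;> cases b1 <;> cases b2 <;> decide
  have e : 8 * K + b0.toNat + 2 * b1.toNat + 4 * b2.toNat =
      8 * K + (b0.toNat + 2 * b1.toNat + 4 * b2.toNat) := by ring
  rw [e, ← Nat.testBit_shiftRight] at ht
  have h1 := Nat.testBit_mod_two_pow (T3 >>> (8 * K)) 8 (b0.toNat + 2 * b1.toNat + 4 * b2.toNat)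
  rw [show (2 : ℕ) ^ 8 = 256 by norm_num, h0, Nat.zero_testBit, ht, decide_eq_true hb] at h1
  exact Bool.noConfusion h1

theorem pat_of {b x0 x1 x2 x3 τ0 τ1 τ2 τ3 : ℝ} {s0 s1 s2 s3 r0 r1 r2 r3 : ℕ}
    (h0 : At b x0 τ0 s0) (h1 : At b x1 τ1 s1) (h2 : At b x2 τ2 s2) (h3 : At b x3 τ3 s3)
    (c01 : τ0 < τ1 ↔ r0 < r1) (c10 : τ1 < τ0 ↔ r1 < r0) (c20 : τ2 < τ0 ↔ r2 < r0)
    (c02 : τ0 < τ2 ↔ r0 < r2) (c21 : τ2 < τ1 ↔ r2 < r1) (c12 : τ1 < τ2 ↔ r1 < r2)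
    (c30 : τ3 < τ0 ↔ r3 < r0) (c03 : τ0 < τ3 ↔ r0 < r3) (c31 : τ3 < τ1 ↔ r3 < r1)
    (c13 : τ1 < τ3 ↔ r1 < r3) (h : pat s0 r0 s1 r1 s2 r2 s3 r3 = true) : patR x0 x1 x2 x3 := by
  unfold pat at h
  simp only [Bool.and_eq_true, Nat.beq_eq] at h
  unfold patR
  rw [fR_eq h0 h1 c10, fR_eq h1 h0 c01, fR_eq h0 h2 c20, fR_eq h2 h0 c02, fR_eq h2 h1 c12,
    fR_eq h1 h2 c21, fR_eq h0 h3 c30, fR_eq h3 h0 c03, fR_eq h3 h1 c13, fR_eq h1 h3 c31]
  obtain ⟨⟨⟨⟨⟨⟨⟨⟨⟨a1, a2⟩, a3⟩, a4⟩, a5⟩, a6⟩, a7⟩, a8⟩, a9⟩, a10⟩ := h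
  exact ⟨a1, a2, a3, a4, a5, a6, a7, a8, a9, a10⟩

theorem beq_not (b : Bool) : (b == !b) = false := by cases b <;> rfl

/-- **the cluster does not exist** -/
theorem csp646 {tA tB tC tD : ℝ} (nAC : Real.sin ((tC - tA) * (Real.pi / 3)) ≠ 0)
    (nAD : Real.sin ((tD - tA) * (Real.pi / 3)) ≠ 0)
    (nAB : Real.sin ((tB - tA) * (Real.pi / 3)) ≠ 0)
    (nBC : Real.sin ((tC - tB) * (Real.pi / 3)) ≠ 0)
    (nBD : Real.sin ((tD - tB) * (Real.pi / 3)) ≠ 0)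
    (nCD : Real.sin ((tD - tC) * (Real.pi / 3)) ≠ 0) {oz0 oz1 zq0 zq1 i j : Bool}
    (hc : cns (kR3 (tC + 3) (tB + 3) tA) (kR3 (tD + 3) (tB + 3) tA)
      (kR3 (tC + 3) (tA + 3) tB) (kR3 (tD + 3) (tA + 3) tB)
      (sR tA tC) (sR tA tD) (sR tA tB) (sR tB tC) (sR tB tD) (sR tC tD) oz0 oz1 zq0 zq1 i j = true)
    (hp : patR (tA + 3) (tB + 3) tC tD ∨ patR (tB + 3) (tA + 3) tC tD → oz0 = oz1 → zq0 = zq1 →
      zq0 ≠ oz0 → False) : False := by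
  obtain ⟨sA, hsA, aA⟩ := exists_at tB tA
  obtain ⟨sC, hsC, aC⟩ := exists_at tB tC
  obtain ⟨sD, hsD, aD⟩ := exists_at tB tD
  have aB : At tB tB 0 0 := ⟨le_rfl, one_pos, by norm_num, 0, by push_cast; ring⟩
  set φA := Int.fract (tA - tB) with hφA
  set φC := Int.fract (tC - tB) with hφC
  set φD := Int.fract (tD - tB) with hφD
  obtain ⟨r, hr4, hr0, hr⟩ := exists_rank 4 ![0, φA, φC, φD]
  have e0 : r 0 = 0 := by
    apply hr0
    intro k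
    fin_cases k
    · exact lt_irrefl _
    · exact not_lt.2 aA.1
    · exact not_lt.2 aC.1
    · exact not_lt.2 aD.1
  have rAB : φA < 0 ↔ r 1 < 0 := by have := hr 1 0; rw [e0] at this; exact this
  have rCB : φC < 0 ↔ r 2 < 0 := by have := hr 2 0; rw [e0] at this; exact this
  have rDB : φD < 0 ↔ r 3 < 0 := by have := hr 3 0; rw [e0] at this; exact this
  have rBA : 0 < φA ↔ 0 < r 1 := by have := hr 0 1; rw [e0] at this; exact this
  have rBC : 0 < φC ↔ 0 < r 2 := by have := hr 0 2; rw [e0] at this; exact this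
  have rBD : 0 < φD ↔ 0 < r 3 := by have := hr 0 3; rw [e0] at this; exact this
  have rAC : φA < φC ↔ r 1 < r 2 := hr 1 2
  have rCA : φC < φA ↔ r 2 < r 1 := hr 2 1
  have rAD : φA < φD ↔ r 1 < r 3 := hr 1 3
  have rDA : φD < φA ↔ r 3 < r 1 := hr 3 1
  have rCD : φC < φD ↔ r 2 < r 3 := hr 2 3
  have rDC : φD < φC ↔ r 3 < r 2 := hr 3 2
  have lA : r 1 < 4 := hr4 1
  have lC : r 2 < 4 := hr4 2
  have lD : r 3 < 4 := hr4 3
  generalize r 1 = rA at *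
  generalize r 2 = rC at *
  generalize r 3 = rD at *
  -- the keys
  have bB := aB.add3 (by norm_num)
  have bA := aA.add3 hsA
  have bC := aC.add3 hsC
  have bD := aD.add3 hsD
  have K00 := key_eq bC bB aA rBC rAC rBA rAB rCB rCA
  have K01 := key_eq bD bB aA rBD rAD rBA rAB rDB rDA
  have K10 := key_eq bC bA aB rAC rBC rAB rBA rCA rCB
  have K11 := key_eq bD bA aB rAD rBD rAB rBA rDA rDB
  -- the signs
  have nSw : ∀ {x y : ℝ}, Real.sin ((y - x) * (Real.pi / 3)) ≠ 0 →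
      Real.sin ((x - y) * (Real.pi / 3)) ≠ 0 := by
    intro x y h
    have e : (x - y) * (Real.pi / 3) = -((y - x) * (Real.pi / 3)) := by ring
    rw [e, Real.sin_neg]
    exact neg_ne_zero.2 h
  have sAC := sR_eq aA aC rCA nAC
  have sAD := sR_eq aA aD rDA nAD
  have sAB := sR_eq aA aB rBA nAB
  have sBC := sR_eq aB aC rCB nBC
  have sBD := sR_eq aB aD rDB nBD
  have sCD := sR_eq aC aD rDC nCD
  have sCA := sR_eq aC aA rAC (nSw nAC)
  have sDA := sR_eq aD aA rAD (nSw nAD)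
  have sBA := sR_eq aB aA rAB (nSw nAB)
  have sCB := sR_eq aC aB rBC (nSw nBC)
  have sDB := sR_eq aD aB rBD (nSw nBD)
  have sDC := sR_eq aD aC rCD (nSw nCD)
  rw [sR_swap nAC] at sCA
  rw [sR_swap nAD] at sDA
  rw [sR_swap nAB] at sBA
  rw [sR_swap nBC] at sCB
  rw [sR_swap nBD] at sDB
  rw [sR_swap nCD] at sDC
  rw [K00, K01, K10, K11] at hc
  have h := chk_true hsA lA hsC lC hsD lD
  unfold chk at h
  have hs := hc
  unfold cns at hs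
  simp only [Bool.and_eq_true] at hs
  obtain ⟨⟨⟨⟨-, u0⟩, u1⟩, u2⟩, u3⟩ := hs
  have w0 := z3_of u0
  have w1 := z3_of u1
  have w2 := z3_of u2
  have w3 := z3_of u3
  rw [← sAC, ← sAD, ← sAB, ← sBC, ← sBD, ← sCD, ← sCA, ← sDA, ← sBA, ← sCB, ← sDB, ← sDC, w0, w1,
    w2, w3, beq_not, beq_not, beq_not, beq_not, beq_not, beq_not] at h
  simp only [Bool.false_or, fb_eq] at h
  have h1 := bAll_spec (bAll_spec (bAll_spec (bAll_spec (bAll_spec (bAll_spec h oz0) oz1) zq0) zq1)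
    i) j
  rw [hc] at h1
  simp only [Bool.not_true, Bool.false_or, Bool.and_eq_true, Bool.or_eq_true, beq_iff_eq, bne_iff_ne]
    at h1
  obtain ⟨⟨⟨h2, h3⟩, h4⟩, h5⟩ := h1
  refine hp ?_ h3 h4 h5
  rcases h2 with h2 | h2
  · exact Or.inl (pat_of bA bB aC aD rAB rBA rCA rAC rCB rBC rDA rAD rDB rBD h2)
  · exact Or.inr (pat_of bB bA aC aD rBA rAB rCB rBC rCA rAC rDB rBD rDA rAD h2)

end Vale.Agent.P032.H646
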