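import Vale.Agent.P032.H646.Glue
import Vale.Agent.P032.H471.K4

/-!
# P032: the two one-circle facts used for the cluster of a (2,2)-centre (helper646)

`R3 T` : the records of the centres with two ends of one type and one end of the complementary type
are in the table `T3`.  `R4 T` : one pattern of a (2,2)-centre does not occur.
-/

open Set Filter Topology Metric

noncomputable section

namespace Vale.Agent.P032.H646

open Vale.Agent.P032.Six Vale.Agent.P032.S5.H767 Vale.Agent.P032.S5.H450

open Classical in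
/-- the exact arc is before the end -/
def ob (T : ℂ → Set (Fin 6)) (z v : ℂ) : Bool := decide (ore T z v = 1)

open Classical in
theorem ob_iff {T : ℂ → Set (Fin 6)} {z v : ℂ} : ob T z v = true ↔ ore T z v = 1 := by
  unfold ob
  rw [decide_eq_true_iff]

/-- the records of (2,1)-centres -/
def R3 (T : ℂ → Set (Fin 6)) : Prop :=
  ∀ (z v v' q : ℂ) (x x' y : ℝ), (∀ p, dist p z = 1 → (T p).ncard ≤ 3 ∨ T p = T z) →
    EE T z v → EE T z v' → EE T z q → T v' = T v → T q = (T v)ᶜ → v ≠ v' →
    (∀ p, dist p z = 1 → T p = T v → p = v ∨ p = v') →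
    (∀ p, dist p z = 1 → T p = (T v)ᶜ → p = q) →
    v = pt z x → v' = pt z x' → q = pt z y →
    t3 (kR3 x x' y) (ob T z v) (ob T z v') (ob T z q) = true

/-- the pattern of (2,2)-centres -/
def R4 (T : ℂ → Set (Fin 6)) : Prop :=
  ∀ (z v v' q q' : ℂ) (x x' y y' : ℝ), (∀ p, dist p z = 1 → (T p).ncard ≤ 3 ∨ T p = T z) →
    EE T z v → EE T z v' → EE T z q → EE T z q' → T v' = T v → T q = (T v)ᶜ → T q' = (T v)ᶜ →
    v ≠ v' → q ≠ q' →
    (∀ p, dist p z = 1 → T p = T v → p = v ∨ p = v') →
    (∀ p, dist p z = 1 → T p = (T v)ᶜ → p = q ∨ p = q') →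
    v = pt z x → v' = pt z x' → q = pt z y → q' = pt z y' → patR x x' y y' →
    ob T z v = ob T z v' → ob T z q = ob T z q' → ob T z q ≠ ob T z v → False

end Vale.Agent.P032.H646
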