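import Vale.Agent.P032.H646.Wd21a

/-!
# P032: closed words with at most two `V` and one `Q`

`all21` : they are in the table `T3`.
-/

namespace Vale.Agent.P032.H646

open Vale.Agent.P032.H546

theorem w21_12 : allB1 (fun _ => true) P3 2 1 2 = true := by decide +kernel

theorem all21 : AllB (fun _ => true) P3 2 1 := ⟨⟨w21_01, w21_02⟩, w21_10, w21_11, w21_12⟩

end Vale.Agent.P032.H646
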