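import Vale.Agent.P032.H646.Wd22a

/-!
# P032: closed words with two `V` and two `Q` in the pattern

`all22` : there are none.
-/

namespace Vale.Agent.P032.H646

open Vale.Agent.P032.H546

theorem w22_11 : allB1 F4 P4 2 2 1 = true := by decide +kernel

theorem all22 : AllB F4 P4 2 2 := ⟨⟨w22_01, w22_02⟩, w22_10, w22_11, w22_12⟩

end Vale.Agent.P032.H646
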