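import Vale.Agent.P032.H460.HB2
import Vale.Agent.P032.H646.Wd21
import Vale.Agent.P032.H646.Wd22
import Vale.Agent.P032.H646.Hyp

/-!
# P032: the word facts `R3` and `R4` (helper646)

`r3_646`, `r4_646` : for `Irr` with no unit pair of orders `≥ 5`, `≥ 4`.
-/

open Set Filter Topology Metric

noncomputable section

namespace Vale.Agent.P032.H646

open Vale.Agent.P032.Six Vale.Agent.P032.S5.H767 Vale.Agent.P032.S5.H349 Vale.Agent.P032.S5.H450
open Vale.Agent.P032.H987 Vale.Agent.P032.H546 Vale.Agent.P032.H460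

variable {U : Fin 6 → Set ℂ} {T : ℂ → Set (Fin 6)} {z v v' q q' : ℂ} {a b c d e f : Fin 6}

theorem oB_V (S : CzE U T z a b c d e f) {y : ℂ} (hT : T y = {a, b, e}) :
    vB (H987.lb T z a b c d e f y).val = true ∧ qB (H987.lb T z a b c d e f y).val = false ∧
      oB (H987.lb T z a b c d e f y).val = ob T z y := by
  rw [lb_V460 S hT]
  by_cases h1 : ore T z y = 1
  · rw [if_pos h1, ob_iff.2 h1]
    exact ⟨by decide, by decide, by decide⟩
  · have h2 : ob T z y = false := by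
      rw [Bool.eq_false_iff, ne_eq, ob_iff]; exact h1
    rw [if_neg h1, h2]
    exact ⟨by decide, by decide, by decide⟩

theorem oB_Q (S : CzE U T z a b c d e f) {y : ℂ} (hT : T y = {c, d, f}) :
    vB (H987.lb T z a b c d e f y).val = false ∧ qB (H987.lb T z a b c d e f y).val = true ∧
      oB (H987.lb T z a b c d e f y).val = ob T z y := by
  rw [lb_Q460 S hT]
  by_cases h1 : ore T z y = 1
  · rw [if_pos h1, ob_iff.2 h1]
    exact ⟨by decide, by decide, by decide⟩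
  · have h2 : ob T z y = false := by
      rw [Bool.eq_false_iff, ne_eq, ob_iff]; exact h1
    rw [if_neg h1, h2]
    exact ⟨by decide, by decide, by decide⟩

theorem vB_iff (S : CzE U T z a b c d e f) {y : ℂ}
    (h : vB (H987.lb T z a b c d e f y).val = true) : T y = {a, b, e} := by
  apply (isV_iff S y).1
  revert h
  generalize H987.lb T z a b c d e f y = k
  revert k
  decide

theorem qB_iff (S : CzE U T z a b c d e f) {y : ℂ}
    (h : qB (H987.lb T z a b c d e f y).val = true) : T y = {c, d, f} := by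
  apply (isQ_iff S y).1
  revert h
  generalize H987.lb T z a b c d e f y = k
  revert k
  decide

theorem ne0_of_vB {k : Fin 7} (h : vB k.val = true) : k ≠ 0 := by
  revert h; revert k; decide

theorem ne0_of_qB {k : Fin 7} (h : qB k.val = true) : k ≠ 0 := by
  revert h; revert k; decide

/-- the position of a point of the circle -/
theorem at_of {p x u : ℝ} {j : Fin 6} (hu : 0 ≤ u ∧ u < 1) (h : qj z p u j = pt z x) :
    At p x u j.val := by
  obtain ⟨n, hn⟩ := pt_eq (show pt z x = pt z (p + u + (j.val : ℝ)) from h.symm)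
  exact ⟨hu.1, hu.2, by omega, n, by rw [hn]⟩

theorem iff_lt {p : ℝ} {l : List ℝ} (L : Tms T z a b c d e f p l) {t t' : ℕ} {u u' : ℝ}
    (h : l[t]? = some u) (h' : l[t']? = some u') : u < u' ↔ t < t' := (L.lt_iff h h').symm

/-- **`R3`** -/
theorem r3_646 (h : Irr U T)
    (h5 : ∀ x y, dist x y = 1 → 5 ≤ (T x).ncard → 4 ≤ (T y).ncard → False) : R3 T := by
  intro z v v' q x x' y w0 ev ev' eq hvv hc hne ov oq hx hx' hy
  obtain ⟨a, b, c, d, e, f, p, p', r, r', -, Z, S, hfin, Tv, Tq⟩ := inst460 h w0 h5 ev eq hc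
  obtain ⟨l, L, hclo⟩ := exists_word460 S Z hfin
  have Tv' : T v' = {a, b, e} := by rw [hvv, Tv]
  have hV : sV (wrd T z a b c d e f p l) ≤ 2 := by
    rw [sV_eq460 S L]
    exact ncard_le_two460 (P := fun y => dist y z = 1 ∧ T y = {a, b, e})
      fun w hw => ov w hw.1 (by rw [hw.2, Tv])
  have hQ : sQ (wrd T z a b c d e f p l) ≤ 1 := by
    rw [sQ_eq460 S L]
    exact ncard_le_one460 (P := fun y => dist y z = 1 ∧ T y = {c, d, f})
      fun w hw => oq w hw.1 (by rw [hw.2, ← Tq, hc])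
  have hP := clo_test all21 hclo hV hQ fun _ _ _ => rfl
  obtain ⟨v1, -, v3⟩ := oB_V S Tv
  obtain ⟨w1, -, w3⟩ := oB_V S Tv'
  obtain ⟨-, q2, q3⟩ := oB_Q S Tq
  obtain ⟨t0, u0, j0, l0, e0, m0⟩ := L.exists_end ev.dist (ne0_of_vB v1)
  obtain ⟨t1, u1, j1, l1, e1, m1⟩ := L.exists_end ev'.dist (ne0_of_vB w1)
  obtain ⟨t2, u2, j2, l2, e2, m2⟩ := L.exists_end eq.dist (ne0_of_qB q2)
  have g1 := impR_mp (allR_iff.1 hP _ m0) v1
  have g2 := impR_mp (allR_iff.1 g1 _ m1) w1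
  rw [orR_eq] at g2
  rcases g2 with g2 | g2
  · exfalso
    unfold sB at g2
    rw [Bool.and_eq_true, Nat.beq_eq, Nat.beq_eq] at g2
    obtain ⟨k1, k2⟩ := g2
    have k1 : t0 = t1 := k1
    have k2 : j0.val = j1.val := k2
    subst k1
    rw [l0] at l1
    simp only [Option.some.injEq] at l1
    subst l1
    apply hne
    rw [e0, e1, Fin.ext k2]
  · have g3 := impR_mp (allR_iff.1 g2 _ m2) q2
    have a0 := at_of (L.mem u0 (List.mem_of_getElem? l0)) (e0.symm.trans hx)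
    have a1 := at_of (L.mem u1 (List.mem_of_getElem? l1)) (e1.symm.trans hx')
    have a2 := at_of (L.mem u2 (List.mem_of_getElem? l2)) (e2.symm.trans hy)
    rw [key_eq a0 a1 a2 (iff_lt L l1 l0) (iff_lt L l2 l0) (iff_lt L l1 l2) (iff_lt L l2 l1)
      (iff_lt L l0 l1) (iff_lt L l0 l2), ← v3, ← w3, ← q3]
    exact g3

/-- difference in `(0, 1)` -/
theorem d01R {x y : ℝ} : fR x y = 0 ∧ fR y x = 5 ↔
    ∃ (n : ℤ) (α : ℝ), 0 < α ∧ α < 1 ∧ y = x + α + 6 * n := by
  unfold fR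
  constructor
  · rintro ⟨h1, h2⟩
    have f1 := Int.floor_le (y - x)
    have f2 := Int.lt_floor_add_one (y - x)
    have f3 := Int.floor_le (x - y)
    have f4 := Int.lt_floor_add_one (x - y)
    obtain ⟨n, hn⟩ : ∃ n : ℤ, ⌊y - x⌋ = 6 * n := ⟨⌊y - x⌋ / 6, by omega⟩
    obtain ⟨m, hm⟩ : ∃ m : ℤ, ⌊x - y⌋ = 6 * m + 5 := ⟨⌊x - y⌋ / 6, by omega⟩
    rw [hn] at f1 f2
    rw [hm] at f3 f4
    push_cast at f1 f2 f3 f4
    have hnm : m = -n - 1 := by
      have k1 : (6 : ℝ) * (n + m) < -4 := by linarith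
      have k2 : (-8 : ℝ) < 6 * (n + m) := by linarith
      have k1' : (6 : ℤ) * (n + m) < -4 := by exact_mod_cast k1
      have k2' : (-8 : ℤ) < 6 * (n + m) := by exact_mod_cast k2
      omega
    rw [hnm] at f3 f4
    push_cast at f3 f4
    refine ⟨n, y - x - 6 * n, by linarith, by linarith, by ring⟩
  · rintro ⟨n, α, h0, h1, rfl⟩
    have e1 : ⌊x + α + 6 * (n : ℝ) - x⌋ = 6 * n := by
      rw [Int.floor_eq_iff]; push_cast; constructor <;> linarith
    have e2 : ⌊x - (x + α + 6 * (n : ℝ))⌋ = -6 * n - 1 := by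
      rw [Int.floor_eq_iff]; push_cast; constructor <;> linarith
    rw [e1, e2]
    constructor <;> omega

theorem eq01 {x y τ σ p : ℝ} {s t r k : ℕ} {X Y : ℕ × ℕ × ℕ} (hx : At p x τ s) (hy : At p y σ t)
    (h1 : σ < τ ↔ k < r) (h2 : τ < σ ↔ r < k) (hX : X.1 = r ∧ X.2.1 = s) (hY : Y.1 = k ∧ Y.2.1 = t) :
    (d01 X Y = true ↔ fR x y = 0 ∧ fR y x = 5) ∧ (d12 X Y = true ↔ fR x y = 1 ∧ fR y x = 4) := by
  unfold d01 d12
  rw [hX.1, hX.2, hY.1, hY.2, fR_eq hx hy h1, fR_eq hy hx h2]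
  constructor <;> rw [Bool.and_eq_true, Nat.beq_eq, Nat.beq_eq]

theorem impR_intro {b c : Bool} (h : b = true → c = true) : impR b c = true := by
  cases b
  · rfl
  · exact h rfl

/-- **`R4`** -/
theorem r4_646 (h : Irr U T)
    (h5 : ∀ x y, dist x y = 1 → 5 ≤ (T x).ncard → 4 ≤ (T y).ncard → False) : R4 T := by
  intro z v v' q q' x x' y y' w0 ev ev' eq eq' hvv hc hc' hne hne' ov oq hx hx' hy hy' hpat s1 s2 s3
  obtain ⟨a, b, c, d, e, f, p, p', r, r', -, Z, S, hfin, Tv, Tq⟩ := inst460 h w0 h5 ev eq hc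
  obtain ⟨l, L, hclo⟩ := exists_word460 S Z hfin
  have Tv' : T v' = {a, b, e} := by rw [hvv, Tv]
  have Tq' : T q' = {c, d, f} := by rw [hc', ← hc, Tq]
  have hV : sV (wrd T z a b c d e f p l) ≤ 2 := by
    rw [sV_eq460 S L]
    exact ncard_le_two460 (P := fun y => dist y z = 1 ∧ T y = {a, b, e})
      fun w hw => ov w hw.1 (by rw [hw.2, Tv])
  have hQ : sQ (wrd T z a b c d e f p l) ≤ 2 := by
    rw [sQ_eq460 S L]
    exact ncard_le_two460 (P := fun y => dist y z = 1 ∧ T y = {c, d, f})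
      fun w hw => oq w hw.1 (by rw [hw.2, ← Tq, hc])
  obtain ⟨v1, v2, v3⟩ := oB_V S Tv
  obtain ⟨w1, w2, w3⟩ := oB_V S Tv'
  obtain ⟨q1, q2, q3⟩ := oB_Q S Tq
  obtain ⟨k1, k2, k3⟩ := oB_Q S Tq'
  -- the pairs
  obtain ⟨b1, b2, b3, b4, b5, b6, b7, b8, b9, b10⟩ := hpat
  have hqq : (fR y y' = 0 ∧ fR y' y = 5) ∨ (fR y' y = 0 ∧ fR y y' = 5) := by
    obtain ⟨n, α, n1, n2, n3⟩ := d01R.1 ⟨b3, b4⟩
    obtain ⟨m, β, m1, m2, m3⟩ := d01R.1 ⟨b7, b8⟩
    rcases lt_trichotomy α β with h6 | h6 | h6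
    · left
      exact d01R.2 ⟨m - n, β - α, by linarith, by linarith, by rw [n3, m3]; push_cast; ring⟩
    · exfalso
      apply hne'
      subst h6
      have e1 : y = y' + ((n - m : ℤ) : ℝ) * 6 := by rw [n3, m3]; push_cast; ring
      rw [hy, hy', e1]
      have key : ∀ (w : ℝ) (i : ℤ), pt z (w + (i : ℝ) * 6) = pt z w := by
        intro w i
        unfold pt
        have e2 : (w + (i : ℝ) * 6) * (Real.pi / 3) =
            w * (Real.pi / 3) + (i : ℝ) * (2 * Real.pi) := by ring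
        rw [e2]
        congr 1
        unfold cis
        rw [Complex.exp_eq_exp_iff_exists_int]
        exact ⟨i, by push_cast; ring⟩
      exact key _ _
    · right
      exact d01R.2 ⟨n - m, α - β, by linarith, by linarith, by rw [n3, m3]; push_cast; ring⟩
  have hF : ∀ s, s <+: wrd T z a b c d e f p l → s ≠ [] → F4 s.reverse = true := by
    intro s hs _
    have sub : ∀ E ∈ endsR s.reverse, E ∈ endsR (wrd T z a b c d e f p l).reverse := by
      rintro ⟨t, j, m⟩ hE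
      rw [mem_endsR460] at hE ⊢
      obtain ⟨g1, g2, g, g3, g4⟩ := hE
      refine ⟨g1, g2, g, ?_, g4⟩
      obtain ⟨s', hs'⟩ := hs
      have h6 : t < s.length := by
        rw [List.getElem?_eq_some_iff] at g3
        exact g3.1
      rw [← hs', List.getElem?_append_left h6]
      exact g3
    have same : ∀ {t t' : ℕ} {u u' : ℝ} {j j' : Fin 6} {m m' : ℕ}, l[t]? = some u →
        l[t']? = some u' → qj z p u j = qj z p u' j' →
        sB (t, j.val, m) (t', j'.val, m') = true := by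
      intro t t' u u' j j' m m' h1 h2 h3
      obtain ⟨rfl, rfl⟩ := slot_inj460 (L.mem u (List.mem_of_getElem? h1))
        (L.mem u' (List.mem_of_getElem? h2)) h3
      have h4 := L.lt_iff h1 h2
      have h6 := L.lt_iff h2 h1
      have h7 : t = t' := by
        have k1 : ¬ t < t' := fun k => lt_irrefl _ (h4.1 k)
        have k2 : ¬ t' < t := fun k => lt_irrefl _ (h6.1 k)
        omega
      unfold sB
      rw [Bool.and_eq_true, Nat.beq_eq, Nat.beq_eq]
      exact ⟨h7, rfl⟩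
    refine allR_iff.2 fun E hE => allR_iff.2 fun E' hE' => ?_
    have hE := sub E hE
    have hE' := sub E' hE'
    obtain ⟨t, j, m⟩ := E
    obtain ⟨t', j', m'⟩ := E'
    obtain ⟨u, i, hu, rfl, hm, rfl⟩ := ends_iff460.1 hE
    obtain ⟨u', i', hu', rfl, hm', rfl⟩ := ends_iff460.1 hE'
    have hu01 := L.mem u (List.mem_of_getElem? hu)
    have hu01' := L.mem u' (List.mem_of_getElem? hu')
    have dV : ∀ {t : ℕ} {u : ℝ} {i : Fin 6}, l[t]? = some u →
        vB (H987.lb T z a b c d e f (qj z p u i)).val = true →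
        (qj z p u i = v ∧ At p x u i.val ∧
          oB (H987.lb T z a b c d e f (qj z p u i)).val = ob T z v) ∨
        (qj z p u i = v' ∧ At p x' u i.val ∧
          oB (H987.lb T z a b c d e f (qj z p u i)).val = ob T z v) := by
      intro t u i hu hv
      have hu01 := L.mem u (List.mem_of_getElem? hu)
      have hT := vB_iff S hv
      rcases ov _ (dist_qj z p u i) (by rw [hT, Tv]) with k | k
      · exact Or.inl ⟨k, at_of hu01 (k.trans hx), by rw [k]; exact v3⟩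
      · exact Or.inr ⟨k, at_of hu01 (k.trans hx'), by rw [k, s1]; exact w3⟩
    have dQ : ∀ {t : ℕ} {u : ℝ} {i : Fin 6}, l[t]? = some u →
        qB (H987.lb T z a b c d e f (qj z p u i)).val = true →
        (qj z p u i = q ∧ At p y u i.val ∧
          oB (H987.lb T z a b c d e f (qj z p u i)).val = ob T z q) ∨
        (qj z p u i = q' ∧ At p y' u i.val ∧
          oB (H987.lb T z a b c d e f (qj z p u i)).val = ob T z q) := by
      intro t u i hu hv
      have hu01 := L.mem u (List.mem_of_getElem? hu)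
      have hT := qB_iff S hv
      rcases oq _ (dist_qj z p u i) (by rw [hT, ← hc, Tq]) with k | k
      · exact Or.inl ⟨k, at_of hu01 (k.trans hy), by rw [k]; exact q3⟩
      · exact Or.inr ⟨k, at_of hu01 (k.trans hy'), by rw [k, s2]; exact k3⟩
    have cmp : ∀ {w w' : ℝ} {m m' : ℕ}, At p w u i.val → At p w' u' i'.val →
        ((d01 (t, i.val, m) (t', i'.val, m') = true ↔ fR w w' = 0 ∧ fR w' w = 5) ∧
        (d12 (t, i.val, m) (t', i'.val, m') = true ↔ fR w w' = 1 ∧ fR w' w = 4)) ∧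
        ((d01 (t', i'.val, m') (t, i.val, m) = true ↔ fR w' w = 0 ∧ fR w w' = 5) ∧
        (d12 (t', i'.val, m') (t, i.val, m) = true ↔ fR w' w = 1 ∧ fR w w' = 4)) := by
      intro w w' m m' h1 h2
      exact ⟨eq01 h1 h2 (iff_lt L hu' hu) (iff_lt L hu hu') ⟨rfl, rfl⟩ ⟨rfl, rfl⟩,
        eq01 h2 h1 (iff_lt L hu hu') (iff_lt L hu' hu) ⟨rfl, rfl⟩ ⟨rfl, rfl⟩⟩
    unfold rel4
    rw [andR_eq, andR_eq]
    refine ⟨impR_intro fun h1 => impR_intro fun h2 => ?_,
      impR_intro fun h1 => impR_intro fun h2 => ?_, impR_intro fun h1 => impR_intro fun h2 => ?_⟩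
    · rw [orR_eq, andR_eq, orR_eq, beq_iff_eq]
      rcases dV hu h1 with ⟨g1, g2, g3⟩ | ⟨g1, g2, g3⟩ <;>
        rcases dV hu' h2 with ⟨g4, g5, g6⟩ | ⟨g4, g5, g6⟩
      · exact Or.inl (same hu hu' (g1.trans g4.symm))
      · exact Or.inr ⟨g3.trans g6.symm, Or.inl ((cmp g2 g5).1.2.2 ⟨b1, b2⟩)⟩
      · exact Or.inr ⟨g3.trans g6.symm, Or.inr ((cmp g2 g5).2.2.2 ⟨b1, b2⟩)⟩
      · exact Or.inl (same hu hu' (g1.trans g4.symm))
    · rw [orR_eq, andR_eq, orR_eq, beq_iff_eq]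
      rcases dQ hu h1 with ⟨g1, g2, g3⟩ | ⟨g1, g2, g3⟩ <;>
        rcases dQ hu' h2 with ⟨g4, g5, g6⟩ | ⟨g4, g5, g6⟩
      · exact Or.inl (same hu hu' (g1.trans g4.symm))
      · refine Or.inr ⟨g3.trans g6.symm, ?_⟩
        rcases hqq with k | k
        · exact Or.inl ((cmp g2 g5).1.1.2 k)
        · exact Or.inr ((cmp g2 g5).2.1.2 k)
      · refine Or.inr ⟨g3.trans g6.symm, ?_⟩
        rcases hqq with k | k
        · exact Or.inr ((cmp g2 g5).2.1.2 k)
        · exact Or.inl ((cmp g2 g5).1.1.2 k)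
      · exact Or.inl (same hu hu' (g1.trans g4.symm))
    · rw [andR_eq, orR_eq, bne_iff_ne]
      rcases dV hu h1 with ⟨g1, g2, g3⟩ | ⟨g1, g2, g3⟩ <;>
        rcases dQ hu' h2 with ⟨g4, g5, g6⟩ | ⟨g4, g5, g6⟩
      · exact ⟨fun k => s3 (by rw [← g6, ← g3]; exact k.symm), Or.inl ((cmp g2 g5).1.1.2 ⟨b3, b4⟩)⟩
      · exact ⟨fun k => s3 (by rw [← g6, ← g3]; exact k.symm), Or.inl ((cmp g2 g5).1.1.2 ⟨b7, b8⟩)⟩
      · exact ⟨fun k => s3 (by rw [← g6, ← g3]; exact k.symm), Or.inr ((cmp g2 g5).2.1.2 ⟨b5, b6⟩)⟩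
      · exact ⟨fun k => s3 (by rw [← g6, ← g3]; exact k.symm), Or.inr ((cmp g2 g5).2.1.2 ⟨b9, b10⟩)⟩
  have hP := clo_test all22 hclo hV hQ hF
  obtain ⟨t0, u0, j0, l0, e0, m0⟩ := L.exists_end ev.dist (ne0_of_vB v1)
  obtain ⟨t1, u1, j1, l1, e1, m1⟩ := L.exists_end ev'.dist (ne0_of_vB w1)
  obtain ⟨t2, u2, j2, l2, e2, m2⟩ := L.exists_end eq.dist (ne0_of_qB q2)
  obtain ⟨t3, u3, j3, l3, e3, m3⟩ := L.exists_end eq'.dist (ne0_of_qB k2)
  have nsB : ∀ {t t' : ℕ} {u u' : ℝ} {j j' : Fin 6} {m m' : ℕ} {w w' : ℂ}, l[t]? = some u →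
      l[t']? = some u' → w = qj z p u j → w' = qj z p u' j' → w ≠ w' →
      sB (t, j.val, m) (t', j'.val, m') = true → False := by
    intro t t' u u' j j' m m' w w' h1 h2 h3 h4 h6 g2
    unfold sB at g2
    rw [Bool.and_eq_true, Nat.beq_eq, Nat.beq_eq] at g2
    obtain ⟨k1, k2⟩ := g2
    have k1 : t = t' := k1
    have k2 : j.val = j'.val := k2
    subst k1
    rw [h1] at h2
    simp only [Option.some.injEq] at h2
    subst h2
    apply h6
    rw [h3, h4, Fin.ext k2]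
  have g1 := impR_mp (allR_iff.1 hP _ m0) v1
  have g2 := impR_mp (allR_iff.1 g1 _ m1) w1
  rw [orR_eq] at g2
  rcases g2 with g2 | g2
  · exact nsB l0 l1 e0 e1 hne g2
  · have g3 := impR_mp (allR_iff.1 g2 _ m2) q2
    have g4 := impR_mp (allR_iff.1 g3 _ m3) k2
    exact nsB l2 l3 e2 e3 hne' g4

end Vale.Agent.P032.H646
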