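import Mathlib

/-!
# P032: combinatorial positions of real directions (helper646)

Directions are real numbers modulo `6` (units of 60 degrees).  `fR x y` is the floor of `y - x`
modulo `6`, `gR x y w` says that the fractional part of `y - x` is smaller than that of `w - x`.
For `x = b + τ + s + 6 n`, `0 ≤ τ < 1`, with the order of the `τ` given by natural numbers `r`, both
are functions of the `s` and the `r` (`fR_eq`, `gR_iff`).
-/

noncomputable section

namespace Vale.Agent.P032.H646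

/-- the floor of the difference modulo `6` -/
def fR (x y : ℝ) : ℕ := (⌊y - x⌋ % 6).toNat

/-- comparison of fractional parts, base `x` -/
def gR (x y w : ℝ) : Prop := Int.fract (y - x) < Int.fract (w - x)

/-- `x` is at the slot `s`, at the time `τ` -/
def At (b x τ : ℝ) (s : ℕ) : Prop := 0 ≤ τ ∧ τ < 1 ∧ s ≤ 11 ∧ ∃ n : ℤ, x = b + τ + s + 6 * n

/-- floor, combinatorial -/
def fN (s0 r0 s1 r1 : ℕ) : ℕ := (s1 + 12 - s0 - (if r1 < r0 then 1 else 0)) % 6

/-- comparison in the cyclic order of the times, from `r0` on -/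
def gN (r0 r1 r2 : ℕ) : Bool :=
  bif Nat.blt r1 r0 then Nat.blt r2 r0 && Nat.blt r1 r2 else Nat.blt r2 r0 || Nat.blt r1 r2

theorem At.diff {b x y τ σ : ℝ} {s t : ℕ} (hx : At b x τ s) (hy : At b y σ t) :
    ∃ n : ℤ, y - x = (σ - τ) + ((t : ℤ) - (s : ℤ) + 6 * n : ℤ) := by
  obtain ⟨-, -, -, n, hn⟩ := hx
  obtain ⟨-, -, -, m, hm⟩ := hy
  refine ⟨m - n, ?_⟩
  rw [hn, hm]; push_cast; ring

theorem floor_diff {τ σ : ℝ} (h0 : 0 ≤ τ) (h1 : τ < 1) (k0 : 0 ≤ σ) (k1 : σ < 1) :
    ⌊σ - τ⌋ = if σ < τ then -1 else 0 := by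
  split_ifs with h
  · rw [Int.floor_eq_iff]; push_cast; constructor <;> linarith
  · rw [Int.floor_eq_iff]; push_cast; constructor <;> linarith

theorem fract_diff {τ σ : ℝ} (h0 : 0 ≤ τ) (h1 : τ < 1) (k0 : 0 ≤ σ) (k1 : σ < 1) :
    Int.fract (σ - τ) = σ - τ + if σ < τ then 1 else 0 := by
  rw [Int.fract, floor_diff h0 h1 k0 k1]
  split_ifs <;> push_cast <;> ring

theorem fR_eq {b x y τ σ : ℝ} {s t r q : ℕ} (hx : At b x τ s) (hy : At b y σ t)
    (hr : σ < τ ↔ q < r) : fR x y = fN s r t q := by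
  obtain ⟨n, hn⟩ := hx.diff hy
  unfold fR fN
  rw [hn, Int.floor_add_intCast, floor_diff hx.1 hx.2.1 hy.1 hy.2.1]
  have hs := hx.2.2.1
  have ht := hy.2.2.1
  by_cases h : σ < τ
  · rw [if_pos h, if_pos (hr.1 h)]
    omega
  · rw [if_neg h, if_neg (fun h' => h (hr.2 h'))]
    omega

theorem blt_of {a b : ℕ} (h : a < b) : Nat.blt a b = true := by rw [Nat.blt_eq]; exact h

theorem gR_iff {b x y w τ σ ρ : ℝ} {s t u r q p : ℕ} (hx : At b x τ s) (hy : At b y σ t)
    (hw : At b w ρ u) (h1 : σ < τ ↔ q < r) (h2 : ρ < τ ↔ p < r) (h3 : σ < ρ ↔ q < p) :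
    gR x y w ↔ gN r q p = true := by
  obtain ⟨n, hn⟩ := hx.diff hy
  obtain ⟨m, hm⟩ := hx.diff hw
  unfold gR gN
  rw [hn, hm, Int.fract_add_intCast, Int.fract_add_intCast,
    fract_diff hx.1 hx.2.1 hy.1 hy.2.1, fract_diff hx.1 hx.2.1 hw.1 hw.2.1]
  have a1 := hx.1
  have a2 := hx.2.1
  have a3 := hy.1
  have a4 := hy.2.1
  have a5 := hw.1
  have a6 := hw.2.1
  by_cases c1 : σ < τ <;> by_cases c2 : ρ < τ
  · have d1 := h1.1 c1
    have d2 := h2.1 c2
    rw [if_pos c1, if_pos c2, blt_of d1, blt_of d2, cond_true, Bool.true_and,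
      Nat.blt_eq]
    constructor
    · intro h; exact h3.1 (by linarith)
    · intro h; have := h3.2 h; linarith
  · have d1 := h1.1 c1
    have d2 : Nat.blt p r = false := by
      rw [Bool.eq_false_iff, ne_eq, Nat.blt_eq]; exact fun h => c2 (h2.2 h)
    rw [if_pos c1, if_neg c2, blt_of d1, d2, cond_true, Bool.false_and]
    constructor
    · intro h; linarith
    · intro h; exact Bool.noConfusion h
  · have d1 : Nat.blt q r = false := by
      rw [Bool.eq_false_iff, ne_eq, Nat.blt_eq]; exact fun h => c1 (h1.2 h)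
    have d2 := h2.1 c2
    rw [if_neg c1, if_pos c2, blt_of d2, d1, cond_false, Bool.true_or]
    constructor
    · intro _; rfl
    · intro _; linarith
  · have d1 : Nat.blt q r = false := by
      rw [Bool.eq_false_iff, ne_eq, Nat.blt_eq]; exact fun h => c1 (h1.2 h)
    have d2 : Nat.blt p r = false := by
      rw [Bool.eq_false_iff, ne_eq, Nat.blt_eq]; exact fun h => c2 (h2.2 h)
    rw [if_neg c1, if_neg c2, d1, d2, cond_false, Bool.false_or, Nat.blt_eq]
    constructor
    · intro h; exact h3.1 (by linarith)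
    · intro h; have := h3.2 h; linarith

/-- the sign of the sine -/
theorem sin_pos_iff {x : ℝ} (h : Real.sin (x * (Real.pi / 3)) ≠ 0) :
    0 < Real.sin (x * (Real.pi / 3)) ↔ (⌊x⌋ % 6).toNat < 3 := by
  have hpi := Real.pi_pos
  set k := ⌊x⌋ / 6 with hk
  set m := ⌊x⌋ % 6 with hm
  have e0 : ⌊x⌋ = 6 * k + m := by rw [hk, hm]; exact (Int.mul_ediv_add_emod _ _).symm
  have hm0 : 0 ≤ m := Int.emod_nonneg _ (by norm_num)
  have hm6 : m < 6 := Int.emod_lt_of_pos _ (by norm_num)
  set y := x - 6 * k with hy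
  have e1 : Real.sin (x * (Real.pi / 3)) = Real.sin (y * (Real.pi / 3)) := by
    have : x * (Real.pi / 3) = y * (Real.pi / 3) + (k : ℝ) * (2 * Real.pi) := by rw [hy]; ring
    rw [this, Real.sin_add_int_mul_two_pi]
  have h1 : (m : ℝ) ≤ y := by
    have := Int.floor_le x
    rw [e0] at this; push_cast at this
    rw [hy]; linarith
  have h2 : y < m + 1 := by
    have := Int.lt_floor_add_one x
    rw [e0] at this; push_cast at this
    rw [hy]; linarith
  rw [e1] at h ⊢
  constructor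
  · intro hpos
    by_contra hcon
    have h3 : (3 : ℤ) ≤ m := by omega
    have h3' : (3 : ℝ) ≤ m := by exact_mod_cast h3
    have h6' : (m : ℝ) + 1 ≤ 6 := by exact_mod_cast (by omega : m + 1 ≤ 6)
    have h4 : Real.sin (y * (Real.pi / 3) - Real.pi) ≥ 0 := by
      apply Real.sin_nonneg_of_nonneg_of_le_pi
      · nlinarith
      · nlinarith
    rw [Real.sin_sub_pi] at h4
    linarith
  · intro hlt
    have h3 : m ≤ 2 := by omega
    have h3' : (m : ℝ) + 1 ≤ 3 := by exact_mod_cast (by omega : m + 1 ≤ 3)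
    have h0' : (0 : ℝ) ≤ m := by exact_mod_cast hm0
    have h4 : 0 ≤ Real.sin (y * (Real.pi / 3)) := by
      apply Real.sin_nonneg_of_nonneg_of_le_pi
      · nlinarith
      · nlinarith
    exact lt_of_le_of_ne h4 (Ne.symm h)

/-- ranks of finitely many numbers -/
theorem exists_rank (n : ℕ) (φ : Fin n → ℝ) :
    ∃ r : Fin n → ℕ, (∀ i, r i < n) ∧ (∀ i, (∀ j, ¬ φ j < φ i) → r i = 0) ∧
      ∀ i j, φ i < φ j ↔ r i < r j := by
  classical
  refine ⟨fun i => (Finset.univ.filter fun j => φ j < φ i).card, fun i => ?_, fun i hi => ?_,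
    fun i j => ?_⟩
  · have : (Finset.univ.filter fun j => φ j < φ i).card < (Finset.univ : Finset (Fin n)).card := by
      apply Finset.card_lt_card
      rw [Finset.ssubset_univ_iff]
      intro h
      have : i ∈ Finset.univ.filter fun j => φ j < φ i := by rw [h]; exact Finset.mem_univ i
      rw [Finset.mem_filter] at this
      exact lt_irrefl _ this.2
    rwa [Finset.card_univ, Fintype.card_fin] at this
  · rw [Finset.card_eq_zero, Finset.filter_eq_empty_iff]
    exact fun j _ => hi j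
  · constructor
    · intro h
      apply Finset.card_lt_card
      rw [Finset.ssubset_iff_of_subset]
      · exact ⟨i, by rw [Finset.mem_filter]; exact ⟨Finset.mem_univ i, h⟩, by
          rw [Finset.mem_filter]; exact fun h' => lt_irrefl _ h'.2⟩
      · intro k hk
        rw [Finset.mem_filter] at hk ⊢
        exact ⟨hk.1, hk.2.trans h⟩
    · intro h
      by_contra hcon
      have : (Finset.univ.filter fun k => φ k < φ j).card ≤
          (Finset.univ.filter fun k => φ k < φ i).card := by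
        apply Finset.card_le_card
        intro k hk
        rw [Finset.mem_filter] at hk ⊢
        exact ⟨hk.1, lt_of_lt_of_le hk.2 (not_lt.1 hcon)⟩
      exact absurd h (not_lt.2 this)

/-- every real number is at a slot -/
theorem exists_at (b x : ℝ) : ∃ s : ℕ, s < 6 ∧ At b x (Int.fract (x - b)) s := by
  refine ⟨(⌊x - b⌋ % 6).toNat, by omega, Int.fract_nonneg _, Int.fract_lt_one _, by omega,
    ⌊x - b⌋ / 6, ?_⟩
  have h1 := Int.floor_add_fract (x - b)
  have h2 : (((⌊x - b⌋ % 6).toNat : ℕ) : ℝ) = ((⌊x - b⌋ % 6 : ℤ) : ℝ) := by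
    have : (((⌊x - b⌋ % 6).toNat : ℕ) : ℤ) = ⌊x - b⌋ % 6 := by omega
    exact_mod_cast this
  have h3 : ((6 * (⌊x - b⌋ / 6) + ⌊x - b⌋ % 6 : ℤ) : ℝ) = ((⌊x - b⌋ : ℤ) : ℝ) := by
    rw [Int.mul_ediv_add_emod]
  push_cast at h3
  rw [h2]
  linarith

theorem At.add3 {b x τ : ℝ} {s : ℕ} (h : At b x τ s) (hs : s < 6) : At b (x + 3) τ (s + 3) := by
  obtain ⟨h1, h2, h3, n, h4⟩ := h
  refine ⟨h1, h2, by omega, n, ?_⟩
  rw [h4]; push_cast; ring

end Vale.Agent.P032.H646
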