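import Vale.Agent.P032.H646.WdD

/-!
# P032: closed words with at most two `V` and one `Q`, first part
-/

namespace Vale.Agent.P032.H646

open Vale.Agent.P032.H546

theorem w21_01 : allB0 (fun _ => true) P3 2 1 1 = true := by decide +kernel

theorem w21_02 : allB0 (fun _ => true) P3 2 1 2 = true := by decide +kernel

theorem w21_10 : allB1 (fun _ => true) P3 2 1 0 = true := by decide +kernel

theorem w21_11 : allB1 (fun _ => true) P3 2 1 1 = true := by decide +kernel

end Vale.Agent.P032.H646
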