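import Vale.Agent.P032.H646.WdD

/-!
# P032: closed words with two `V` and two `Q` in the pattern, first part
-/

namespace Vale.Agent.P032.H646

open Vale.Agent.P032.H546

theorem w22_01 : allB0 F4 P4 2 2 1 = true := by decide +kernel

theorem w22_02 : allB0 F4 P4 2 2 2 = true := by decide +kernel

theorem w22_10 : allB1 F4 P4 2 2 0 = true := by decide +kernel

theorem w22_12 : allB1 F4 P4 2 2 2 = true := by decide +kernel

end Vale.Agent.P032.H646
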