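import Vale.Agent.P032.H546.Far
import Vale.Agent.P032.H646.Csp

/-!
# P032: the tests of closed words for the (2,1)-centres and for the pattern of (2,2)-centres

`P3` : the word is in the table `T3`.  `F4`, `P4` : the pattern with two `V` and two `Q`.
-/

namespace Vale.Agent.P032.H646

open Vale.Agent.P032.H546

/-- label of a `V` -/
def vB (l : ℕ) : Bool := Nat.beq l 1 || Nat.beq l 2
/-- label of a `Q` -/
def qB (l : ℕ) : Bool := Nat.beq l 3 || Nat.beq l 4
/-- the exact arc is before the end -/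
def oB (l : ℕ) : Bool := Nat.beq l 1 || Nat.beq l 3
/-- the same place -/
def sB (x y : ℕ × ℕ × ℕ) : Bool := Nat.beq x.1 y.1 && Nat.beq x.2.1 y.2.1

/-- the test of the (2,1)-words -/
noncomputable def P3 (b : List ℕ) : Bool :=
  allR (fun x => impR (vB x.2.2) (allR (fun y => impR (vB y.2.2) (orR (sB x y)
    (allR (fun w => impR (qB w.2.2)
      (t3 (k3 x.2.1 x.1 y.2.1 y.1 w.2.1 w.1) (oB x.2.2) (oB y.2.2) (oB w.2.2))) (endsR b))))
    (endsR b))) (endsR b)

/-- difference in `(0, 1)` -/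
def d01 (x y : ℕ × ℕ × ℕ) : Bool :=
  Nat.beq (fN x.2.1 x.1 y.2.1 y.1) 0 && Nat.beq (fN y.2.1 y.1 x.2.1 x.1) 5
/-- difference in `(1, 2)` -/
def d12 (x y : ℕ × ℕ × ℕ) : Bool :=
  Nat.beq (fN x.2.1 x.1 y.2.1 y.1) 1 && Nat.beq (fN y.2.1 y.1 x.2.1 x.1) 4

/-- the relation of two ends in the pattern -/
noncomputable def rel4 (x y : ℕ × ℕ × ℕ) : Bool :=
  andR (impR (vB x.2.2) (impR (vB y.2.2) (orR (sB x y)
    (andR (oB x.2.2 == oB y.2.2) (orR (d12 x y) (d12 y x))))))
  (andR (impR (qB x.2.2) (impR (qB y.2.2) (orR (sB x y)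
    (andR (oB x.2.2 == oB y.2.2) (orR (d01 x y) (d01 y x))))))
  (impR (vB x.2.2) (impR (qB y.2.2) (andR (oB x.2.2 != oB y.2.2) (orR (d01 x y) (d01 y x))))))

/-- the test of the prefixes -/
noncomputable def F4 (b : List ℕ) : Bool :=
  allR (fun x => allR (fun y => rel4 x y) (endsR b)) (endsR b)

/-- two different `V` and two different `Q` do not occur -/
noncomputable def P4 (b : List ℕ) : Bool :=
  allR (fun x => impR (vB x.2.2) (allR (fun y => impR (vB y.2.2) (orR (sB x y)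
    (allR (fun w => impR (qB w.2.2) (allR (fun t => impR (qB t.2.2) (sB w t)) (endsR b)))
      (endsR b)))) (endsR b))) (endsR b)

end Vale.Agent.P032.H646
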